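import Vale.Agent.P034.Main

namespace Vale.Agent.Results.P034.Talagrand

open Vale.Agent.P034

theorem result : ∃ K : ℝ, ∀ (X : Type) [Fintype X] [DecidableEq X] [Nonempty X]
    (F : Finset (Finset X)), F.Nonempty → (∀ A ∈ F, ∀ B : Finset X, A ⊆ B → B ∈ F) → ∅ ∉ F →
      qFrac F ≤ K * qInt F :=
  ⟨5000000, fun _ _ _ _ _ _ _ hF => qFrac_le hF⟩

end Vale.Agent.Results.P034.Talagrand
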